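import Vale.Agent.Lib.P154KS.Reg

/-!
Reconstruction above the Kesten-Stigum bound on Galton-Watson trees: the linear statistic which uses
only the first `K` children of each vertex has bounded values on each level and the same recursion
with the truncated mean.
-/

noncomputable section

open Finset Filter Topology

namespace Vale.Agent.Lib.P154KS

open Vale.Agent.Lib.P154

variable {q : ℕ} {lam : ℝ}

/-- The indicator of the first `K` children. -/
def sel (K k : ℕ) (c : Fin k) : ℝ := if c.val < K then 1 else 0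

theorem sel_sq (K k : ℕ) (c : Fin k) : sel K k c ^ 2 = sel K k c := by
  unfold sel
  split_ifs <;> norm_num

theorem sel_nonneg (K k : ℕ) (c : Fin k) : 0 ≤ sel K k c := by
  unfold sel
  split_ifs <;> norm_num

/-- The number of children which are used. -/
def selS (K k : ℕ) : ℝ := ∑ c : Fin k, sel K k c

theorem selS_nonneg (K k : ℕ) : 0 ≤ selS K k := Finset.sum_nonneg fun c _ => sel_nonneg K k c

theorem selS_le (K k : ℕ) : selS K k ≤ K := by
  unfold selS sel
  rw [Finset.sum_boole]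
  have : (Finset.univ.filter fun c : Fin k => c.val < K).card ≤ (Finset.range K).card := by
    refine Finset.card_le_card_of_injOn (fun c => c.val) ?_ ?_
    · intro c hc
      simpa using hc
    · intro a _ b _ h
      exact Fin.ext h
  rw [Finset.card_range] at this
  exact_mod_cast this

theorem selS_of_le {K k : ℕ} (h : k ≤ K) : selS K k = k := by
  unfold selS sel
  have : ∀ c : Fin k, (if c.val < K then (1 : ℝ) else 0) = 1 := fun c => by
    rw [if_pos (lt_of_lt_of_le c.isLt h)]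
  simp [this]

theorem bdd_selS (K : ℕ) : BddF (selS K) :=
  BddF.of_Icc (a := 0) (b := K) fun k => ⟨selS_nonneg K k, selS_le K k⟩

/-- The statistic on a truncated tree which uses the first `K` children of each vertex. -/
def XT (q : ℕ) (e0 : Fin q) (K : ℕ) : (n : ℕ) → (T : GWTree n) → GWSpins q n T → ℝ
  | 0, _, τ => fS q e0 (gwSpinAtZero τ)
  | n + 1, T, τ => ∑ c : Fin T.1, sel K T.1 c * XT q e0 K n (T.2 c) (τ c)

theorem XT_abs (hq : 0 < q) (e0 : Fin q) (K : ℕ) : ∀ (n : ℕ) (T : GWTree n) (τ : GWSpins q n T),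
    |XT q e0 K n T τ| ≤ (K : ℝ) ^ n
  | 0, _, τ => by
    change |fS q e0 (gwSpinAtZero τ)| ≤ (K : ℝ) ^ 0
    simpa using fS_abs hq e0 (gwSpinAtZero τ)
  | n + 1, T, τ => by
    have h1 : |∑ c : Fin T.1, sel K T.1 c * XT q e0 K n (T.2 c) (τ c)|
        ≤ ∑ c : Fin T.1, sel K T.1 c * (K : ℝ) ^ n := by
      refine (Finset.abs_sum_le_sum_abs _ _).trans (Finset.sum_le_sum fun c _ => ?_)
      rw [abs_mul, abs_of_nonneg (sel_nonneg K T.1 c)]
      exact mul_le_mul_of_nonneg_left (XT_abs hq e0 K n (T.2 c) (τ c)) (sel_nonneg K T.1 c)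
    refine h1.trans ?_
    rw [← Finset.sum_mul, pow_succ']
    exact mul_le_mul_of_nonneg_right (selS_le K T.1) (by positivity)

theorem gwlik_wprob (hq : 0 < q) (hP : ∀ i j, 0 ≤ potts q lam i j) :
    ∀ (n : ℕ) (T : GWTree n) (i : Fin q), WProb (gwLik q lam n T i)
  | 0, _, i => by
    refine ⟨fun τ => ?_, ?_⟩
    · change 0 ≤ (if i = gwSpinAtZero τ then (1 : ℝ) else 0)
      split_ifs <;> norm_num
    · have h : HasSum (fun τ : Fin q => if i = τ then (1 : ℝ) else 0) (∑ τ : Fin q, if i = τ then (1 : ℝ) else 0) :=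
        hasSum_fintype _
      simp only [Finset.sum_ite_eq, mem_univ, if_true] at h
      exact h
  | n + 1, T, i => by
    have h := wprob_pi T.1 (fun c => GWSpins q n (T.2 c)) (fun c => chanW q lam (gwLik q lam n (T.2 c)) i)
      (fun c => chanW_wprob hq hP (gwlik_wprob hq hP n (T.2 c)) i)
    exact h

/-- The mean of the statistic on a tree. -/
def mT (q : ℕ) (lam : ℝ) (e0 : Fin q) (K n : ℕ) (T : GWTree n) (i : Fin q) : ℝ :=
  Ew (gwLik q lam n T i) (XT q e0 K n T)

/-- The second moment of the statistic on a tree. -/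
def vT (q : ℕ) (lam : ℝ) (e0 : Fin q) (K n : ℕ) (T : GWTree n) (i : Fin q) : ℝ :=
  Ew (gwLik q lam n T i) (fun τ => XT q e0 K n T τ ^ 2)

section
variable (e0 : Fin q) (K : ℕ)

theorem mT_succ (hq : 0 < q) (hP : ∀ i j, 0 ≤ potts q lam i j) (n : ℕ) (T : GWTree (n + 1)) (i : Fin q) :
    mT q lam e0 K (n + 1) T i = ∑ c : Fin T.1, sel K T.1 c * Pc q lam (mT q lam e0 K n (T.2 c)) i := by
  have hw := fun c : Fin T.1 => gwlik_wprob hq hP n (T.2 c)
  have h := Ew_pi_sum T.1 (fun c => GWSpins q n (T.2 c)) (fun c => chanW q lam (gwLik q lam n (T.2 c)) i)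
    (fun c => chanW_wprob hq hP (hw c) i) (fun c σ => sel K T.1 c * XT q e0 K n (T.2 c) σ)
    (fun c => bdd_fintype _)
  refine Eq.trans h ?_
  refine Finset.sum_congr rfl fun c _ => ?_
  rw [Ew_const_mul, Ew_chanW (hw c) (bdd_fintype _)]
  rfl

theorem vT_succ (hq : 0 < q) (hP : ∀ i j, 0 ≤ potts q lam i j) (n : ℕ) (T : GWTree (n + 1)) (i : Fin q) :
    vT q lam e0 K (n + 1) T i
      = (∑ c : Fin T.1, sel K T.1 c * Pc q lam (mT q lam e0 K n (T.2 c)) i) ^ 2
        + ∑ c : Fin T.1, (sel K T.1 c ^ 2 * Pc q lam (vT q lam e0 K n (T.2 c)) i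
            - (sel K T.1 c * Pc q lam (mT q lam e0 K n (T.2 c)) i) ^ 2) := by
  have hw := fun c : Fin T.1 => gwlik_wprob hq hP n (T.2 c)
  have h := Ew_pi_U T.1 (fun c => GWSpins q n (T.2 c)) (fun c => chanW q lam (gwLik q lam n (T.2 c)) i)
    (fun c => chanW_wprob hq hP (hw c) i) (fun c σ => sel K T.1 c * XT q e0 K n (T.2 c) σ)
    (fun c σ => (sel K T.1 c * XT q e0 K n (T.2 c) σ) ^ 2)
    (fun c => bdd_fintype _) (fun c => bdd_fintype _)
  simp only [sub_self, Finset.sum_const_zero, add_zero] at h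
  refine Eq.trans h ?_
  congr 1
  · congr 1
    refine Finset.sum_congr rfl fun c _ => ?_
    rw [Ew_const_mul, Ew_chanW (hw c) (bdd_fintype _)]
    rfl
  · refine Finset.sum_congr rfl fun c _ => ?_
    have e : (fun σ : GWSpins q n (T.2 c) => (sel K T.1 c * XT q e0 K n (T.2 c) σ) ^ 2)
        = fun σ => sel K T.1 c ^ 2 * XT q e0 K n (T.2 c) σ ^ 2 := by
      funext σ
      ring
    rw [e, Ew_const_mul, Ew_const_mul, Ew_chanW (hw c) (bdd_fintype _), Ew_chanW (hw c) (bdd_fintype _)]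
    rfl

theorem mT_abs (hq : 0 < q) (hP : ∀ i j, 0 ≤ potts q lam i j) (n : ℕ) (T : GWTree n) (i : Fin q) :
    |mT q lam e0 K n T i| ≤ (K : ℝ) ^ n :=
  abs_Ew_le (gwlik_wprob hq hP n T i) (XT_abs hq e0 K n T)

theorem vT_bounds (hq : 0 < q) (hP : ∀ i j, 0 ≤ potts q lam i j) (n : ℕ) (T : GWTree n) (i : Fin q) :
    |vT q lam e0 K n T i| ≤ ((K : ℝ) ^ n) ^ 2 := by
  refine abs_Ew_le (gwlik_wprob hq hP n T i) fun τ => ?_
  rw [abs_pow]
  have h0 := abs_nonneg (XT q e0 K n T τ)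
  exact pow_le_pow_left₀ h0 (XT_abs hq e0 K n T τ) 2

theorem bdd_mT (hq : 0 < q) (hP : ∀ i j, 0 ≤ potts q lam i j) (n : ℕ) (i : Fin q) :
    BddF (fun T : GWTree n => mT q lam e0 K n T i) :=
  ⟨_, fun T => mT_abs e0 K hq hP n T i⟩

theorem bdd_vT (hq : 0 < q) (hP : ∀ i j, 0 ≤ potts q lam i j) (n : ℕ) (i : Fin q) :
    BddF (fun T : GWTree n => vT q lam e0 K n T i) :=
  ⟨_, fun T => vT_bounds e0 K hq hP n T i⟩

end

/-- The mean of the statistic over the trees. -/
def An (p : ℕ → ℝ) (q : ℕ) (lam : ℝ) (e0 : Fin q) (K n : ℕ) (i : Fin q) : ℝ :=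
  Ew (gwWeight p n) (fun T => mT q lam e0 K n T i)

/-- The second moment of the statistic over the trees. -/
def Bn (p : ℕ → ℝ) (q : ℕ) (lam : ℝ) (e0 : Fin q) (K n : ℕ) (i : Fin q) : ℝ :=
  Ew (gwWeight p n) (fun T => vT q lam e0 K n T i)

/-- The truncated mean. -/
def dK (p : ℕ → ℝ) (K : ℕ) : ℝ := ∑' k, p k * selS K k

/-- The truncated second factorial moment. -/
def cK (p : ℕ → ℝ) (K : ℕ) : ℝ := ∑' k, p k * (selS K k ^ 2 - selS K k)

section
variable {p : ℕ → ℝ} (e0 : Fin q) (K : ℕ)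

theorem Ew_Pc {X : Type} {w : X → ℝ} (hw : WProb w) {f : X → Fin q → ℝ} (hf : ∀ i, BddF (fun x => f x i)) (i : Fin q) :
    Ew w (fun x => Pc q lam (f x) i) = Pc q lam (fun j => Ew w (fun x => f x j)) i := by
  unfold Pc
  exact Ew_fin_sum hw Finset.univ (fun j => potts q lam i j) hf

theorem An_succ (hp : WProb p) (hq : 0 < q) (hP : ∀ i j, 0 ≤ potts q lam i j) (n : ℕ) (i : Fin q) :
    An p q lam e0 K (n + 1) i = dK p K * Pc q lam (An p q lam e0 K n) i := by
  have hw := gwWeight_wprob hp n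
  have h := Ew_mix hp hw (F := fun T : GWTree (n + 1) => mT q lam e0 K (n + 1) T i)
    (bdd_mT e0 K hq hP (n + 1) i)
  refine Eq.trans h ?_
  have hk : ∀ k, Ew (wPow (gwWeight p n) k) (fun ts => mT q lam e0 K (n + 1) ⟨k, ts⟩ i)
      = selS K k * Pc q lam (An p q lam e0 K n) i := by
    intro k
    have hb : ∀ j, BddF (fun T : GWTree n => mT q lam e0 K n T j) := bdd_mT e0 K hq hP n
    have hPb : BddF (fun T : GWTree n => Pc q lam (mT q lam e0 K n T) i) := by
      unfold Pc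
      exact bdd_sum _ fun j => (hb j).const_mul _
    have h1 := Ew_pi_sum k (fun _ => GWTree n) (fun _ => gwWeight p n) (fun _ => hw)
      (fun c T => sel K k c * Pc q lam (mT q lam e0 K n T) i) (fun c => hPb.const_mul _)
    have e : (fun ts : Fin k → GWTree n => mT q lam e0 K (n + 1) ⟨k, ts⟩ i)
        = fun ts => ∑ c : Fin k, sel K k c * Pc q lam (mT q lam e0 K n (ts c)) i := by
      funext ts
      exact mT_succ e0 K hq hP n ⟨k, ts⟩ i
    rw [e]
    refine Eq.trans h1 ?_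
    unfold selS
    rw [Finset.sum_mul]
    refine Finset.sum_congr rfl fun c _ => ?_
    rw [Ew_const_mul, Ew_Pc hw hb]
    rfl
  simp only [hk]
  unfold dK
  rw [← tsum_mul_right]
  congr 1
  funext k
  ring

theorem Bn_succ (hp : WProb p) (hq : 0 < q) (hP : ∀ i j, 0 ≤ potts q lam i j) (n : ℕ) (i : Fin q) :
    Bn p q lam e0 K (n + 1) i
      = cK p K * Pc q lam (An p q lam e0 K n) i ^ 2 + dK p K * Pc q lam (Bn p q lam e0 K n) i := by
  have hw := gwWeight_wprob hp n
  have h := Ew_mix hp hw (F := fun T : GWTree (n + 1) => vT q lam e0 K (n + 1) T i)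
    (bdd_vT e0 K hq hP (n + 1) i)
  refine Eq.trans h ?_
  set A := Pc q lam (An p q lam e0 K n) i with hA
  set V := Pc q lam (Bn p q lam e0 K n) i with hV
  have hk : ∀ k, Ew (wPow (gwWeight p n) k) (fun ts => vT q lam e0 K (n + 1) ⟨k, ts⟩ i)
      = (selS K k ^ 2 - selS K k) * A ^ 2 + selS K k * V := by
    intro k
    have hb : ∀ j, BddF (fun T : GWTree n => mT q lam e0 K n T j) := bdd_mT e0 K hq hP n
    have hc : ∀ j, BddF (fun T : GWTree n => vT q lam e0 K n T j) := bdd_vT e0 K hq hP n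
    have hPb : BddF (fun T : GWTree n => Pc q lam (mT q lam e0 K n T) i) := by
      unfold Pc
      exact bdd_sum _ fun j => (hb j).const_mul _
    have hPc : BddF (fun T : GWTree n => Pc q lam (vT q lam e0 K n T) i) := by
      unfold Pc
      exact bdd_sum _ fun j => (hc j).const_mul _
    have h1 := Ew_pi_U k (fun _ => GWTree n) (fun _ => gwWeight p n) (fun _ => hw)
      (fun c T => sel K k c * Pc q lam (mT q lam e0 K n T) i)
      (fun c T => sel K k c ^ 2 * Pc q lam (vT q lam e0 K n T) i)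
      (fun c => hPb.const_mul _) (fun c => hPc.const_mul _)
    have e : (fun ts : Fin k → GWTree n => vT q lam e0 K (n + 1) ⟨k, ts⟩ i)
        = fun ts => (∑ c : Fin k, sel K k c * Pc q lam (mT q lam e0 K n (ts c)) i) ^ 2
            + ∑ c : Fin k, (sel K k c ^ 2 * Pc q lam (vT q lam e0 K n (ts c)) i
              - (sel K k c * Pc q lam (mT q lam e0 K n (ts c)) i) ^ 2) := by
      funext ts
      exact vT_succ e0 K hq hP n ⟨k, ts⟩ i
    rw [e]
    refine Eq.trans h1 ?_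
    have e1 : ∀ c : Fin k, Ew (gwWeight p n) (fun T => sel K k c * Pc q lam (mT q lam e0 K n T) i) = sel K k c * A := by
      intro c
      rw [Ew_const_mul, Ew_Pc hw hb]
      rfl
    have e2 : ∀ c : Fin k, Ew (gwWeight p n) (fun T => sel K k c ^ 2 * Pc q lam (vT q lam e0 K n T) i)
        = sel K k c * V := by
      intro c
      rw [Ew_const_mul, Ew_Pc hw hc, sel_sq]
      rfl
    simp only [e1, e2]
    have e3 : ∑ c : Fin k, sel K k c * A = selS K k * A := by
      unfold selS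
      rw [Finset.sum_mul]
    have e4 : ∑ c : Fin k, (sel K k c * V - (sel K k c * A) ^ 2) = selS K k * V - selS K k * A ^ 2 := by
      unfold selS
      rw [Finset.sum_mul, Finset.sum_mul, ← Finset.sum_sub_distrib]
      refine Finset.sum_congr rfl fun c _ => ?_
      rw [mul_pow, sel_sq]
    rw [e3, e4]
    ring
  simp only [hk]
  have hS1 : Summable (fun k => p k * (selS K k ^ 2 - selS K k) * A ^ 2) :=
    (hp.summable_mul ((bdd_sq (bdd_selS K)).sub (bdd_selS K))).mul_right _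
  have hS2 : Summable (fun k => p k * selS K k * V) := (hp.summable_mul (bdd_selS K)).mul_right _
  unfold cK dK
  rw [← tsum_mul_right, ← tsum_mul_right, ← hS1.tsum_add hS2]
  congr 1
  funext k
  ring

theorem mT_zero (e0 : Fin q) (T : GWTree 0) (i : Fin q) : mT q lam e0 K 0 T i = fS q e0 i := by
  unfold mT
  have e : ∀ τ : Fin q, (if i = τ then (1 : ℝ) else 0) * fS q e0 τ = if i = τ then fS q e0 τ else 0 := fun τ => by
    split_ifs <;> simp
  change ∑' τ : Fin q, (if i = τ then (1 : ℝ) else 0) * fS q e0 τ = _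
  rw [tsum_fintype]
  simp only [e]
  simp

theorem vT_zero (hq : 0 < q) (e0 : Fin q) (T : GWTree 0) (i : Fin q) : vT q lam e0 K 0 T i ≤ 1 := by
  unfold vT
  have e : ∀ τ : Fin q, (if i = τ then (1 : ℝ) else 0) * fS q e0 τ ^ 2 = if i = τ then fS q e0 τ ^ 2 else 0 := fun τ => by
    split_ifs <;> simp
  change ∑' τ : Fin q, (if i = τ then (1 : ℝ) else 0) * fS q e0 τ ^ 2 ≤ _
  rw [tsum_fintype]
  simp only [e]
  simp only [Finset.sum_ite_eq, mem_univ, if_true]
  have := fS_abs hq e0 i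
  rw [← sq_abs]
  have h0 := abs_nonneg (fS q e0 i)
  nlinarith

theorem An_eq (hp : WProb p) (hq : 0 < q) (hP : ∀ i j, 0 ≤ potts q lam i j) (n : ℕ) (i : Fin q) :
    An p q lam e0 K n i = (dK p K * lam) ^ n * fS q e0 i := by
  induction n generalizing i with
  | zero =>
    unfold An
    simp only [mT_zero]
    rw [Ew_const (gwWeight_wprob hp 0)]
    simp
  | succ n ih =>
    rw [An_succ e0 K hp hq hP]
    have : An p q lam e0 K n = fun j => (dK p K * lam) ^ n * fS q e0 j := by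
      funext j
      exact ih j
    rw [this, Pc_fS hq]
    ring

theorem cK_le (hp : WProb p) (K : ℕ) : cK p K ≤ (K : ℝ) ^ 2 := by
  unfold cK
  have hS := hp.summable_mul ((bdd_sq (bdd_selS K)).sub (bdd_selS K))
  have hS2 : Summable (fun k => p k * (K : ℝ) ^ 2) := hp.hasSum.summable.mul_right _
  refine (hS.tsum_le_tsum (fun k => mul_le_mul_of_nonneg_left ?_ (hp.nonneg k)) hS2).trans ?_
  · have h0 := selS_nonneg K k
    have h1 := selS_le K k
    have : selS K k ^ 2 ≤ (K : ℝ) ^ 2 := pow_le_pow_left₀ h0 h1 2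
    linarith
  · rw [tsum_mul_right, hp.hasSum.tsum_eq, one_mul]

theorem cK_nonneg_or (hp : WProb p) (K : ℕ) (x : ℝ) (hx : 0 ≤ x) : cK p K * x ≤ (K : ℝ) ^ 2 * x :=
  mul_le_mul_of_nonneg_right (cK_le hp K) hx

theorem Bn_le (hp : WProb p) (hq : 0 < q) (hP : ∀ i j, 0 ≤ potts q lam i j) (hD : 0 < dK p K)
    (hKS : 1 < dK p K * lam ^ 2) {C : ℝ} (hC1 : 1 ≤ C)
    (hC : (K : ℝ) ^ 2 * lam ^ 2 / (dK p K * (dK p K * lam ^ 2 - 1)) ≤ C) (n : ℕ) (i : Fin q) :
    Bn p q lam e0 K n i ≤ C * ((dK p K * lam) ^ n) ^ 2 := by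
  induction n generalizing i with
  | zero =>
    have hw := gwWeight_wprob hp 0
    have := Ew_le_of_le hw (bdd_vT e0 K hq hP 0 i) (c := 1) fun T => vT_zero K hq e0 T i
    simp only [pow_zero, one_pow, mul_one]
    unfold Bn
    linarith
  | succ n ih =>
    rw [Bn_succ e0 K hp hq hP]
    have hm : An p q lam e0 K n = fun j => (dK p K * lam) ^ n * fS q e0 j := by
      funext j
      exact An_eq e0 K hp hq hP n j
    rw [hm, Pc_fS hq]
    have hPv := Pc_le hq hP (a := Bn p q lam e0 K n) (C := C * ((dK p K * lam) ^ n) ^ 2) ih i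
    set M := (dK p K * lam) ^ n with hM
    have hf : fS q e0 i ^ 2 ≤ 1 := by
      have := fS_abs hq e0 i
      rw [← sq_abs]
      have h0 := abs_nonneg (fS q e0 i)
      nlinarith
    have hstep := const_step (D := dK p K) (K2 := (K : ℝ) ^ 2) (L2 := lam ^ 2) (C := C) (m2 := M ^ 2)
      (A := cK p K * (M * (lam * fS q e0 i)) ^ 2 + dK p K * Pc q lam (Bn p q lam e0 K n) i)
      hD hKS hC (sq_nonneg _) (by
        have h1 := cK_nonneg_or hp K ((M * (lam * fS q e0 i)) ^ 2) (sq_nonneg _)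
        have h2 : (K : ℝ) ^ 2 * (M * (lam * fS q e0 i)) ^ 2 ≤ (K : ℝ) ^ 2 * lam ^ 2 * M ^ 2 := by
          have e : (K : ℝ) ^ 2 * (M * (lam * fS q e0 i)) ^ 2 = ((K : ℝ) ^ 2 * lam ^ 2 * M ^ 2) * fS q e0 i ^ 2 := by
            ring
          rw [e]
          exact mul_le_of_le_one_right (by positivity) hf
        have h3 := mul_le_mul_of_nonneg_left hPv hD.le
        linarith)
    refine hstep.trans_eq ?_
    rw [pow_succ (dK p K * lam) n, ← hM]
    ring

end

/-! ### The advantage -/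

theorem advOf_nonneg {S : Type} [Fintype S] {L : Fin q → S → ℝ} (hL : ∀ i, WProb (L i)) : 0 ≤ advOf q L := by
  unfold advOf
  refine Finset.sum_nonneg fun τ _ => mul_nonneg ?_ ?_
  · exact Finset.sum_nonneg fun i _ => mul_nonneg (by positivity) ((hL i).nonneg τ)
  · exact mul_nonneg (by norm_num) (Finset.sum_nonneg fun i _ => abs_nonneg _)

theorem advOf_le_one {S : Type} [Fintype S] (hq : 0 < q) {L : Fin q → S → ℝ} (hL : ∀ i, WProb (L i)) : advOf q L ≤ 1 := by
  have hq' : (0 : ℝ) < q := by positivity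
  have hsum : ∑ τ, ∑ i, (1 / (q : ℝ)) * L i τ = 1 := by
    rw [Finset.sum_comm]
    have hL1 : ∀ i, ∑ τ, L i τ = 1 := fun i => (hasSum_fintype (L i)).unique (hL i).hasSum
    simp only [← Finset.mul_sum, hL1]
    simp
    field_simp
  rw [← hsum]
  unfold advOf
  refine Finset.sum_le_sum fun τ _ => ?_
  set P := ∑ i, (1 / (q : ℝ)) * L i τ with hPdef
  have hP0 : 0 ≤ P := Finset.sum_nonneg fun i _ => mul_nonneg (by positivity) ((hL i).nonneg τ)
  rcases hP0.eq_or_lt with h0 | hpos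
  · rw [← h0]
    simp
  have hpost : ∀ i : Fin q, 0 ≤ (1 / (q : ℝ)) * L i τ / P := fun i =>
    div_nonneg (mul_nonneg (by positivity) ((hL i).nonneg τ)) hP0
  have hs : ∑ i : Fin q, (1 / (q : ℝ)) * L i τ / P = 1 := by
    rw [← Finset.sum_div]
    exact div_self hpos.ne'
  have habs : ∀ i : Fin q, |(1 / (q : ℝ)) * L i τ / P - 1 / (q : ℝ)| ≤ (1 / (q : ℝ)) * L i τ / P + 1 / (q : ℝ) := fun i => by
    rw [abs_le]
    have h1 := hpost i
    have h2 : 0 < 1 / (q : ℝ) := by positivity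
    constructor <;> linarith
  have hle : ∑ i : Fin q, |(1 / (q : ℝ)) * L i τ / P - 1 / (q : ℝ)| ≤ 2 := by
    refine (Finset.sum_le_sum fun i _ => habs i).trans ?_
    rw [Finset.sum_add_distrib, hs]
    simp
    have : (q : ℝ) * (q : ℝ)⁻¹ = 1 := mul_inv_cancel₀ hq'.ne'
    linarith
  have : (1 / 2) * ∑ i : Fin q, |(1 / (q : ℝ)) * L i τ / P - 1 / (q : ℝ)| ≤ 1 := by linarith
  calc _ ≤ P * 1 := mul_le_mul_of_nonneg_left this hP0
    _ = _ := mul_one _

theorem exists_trunc {p : ℕ → ℝ} {d : ℝ} (hp : WProb p) (hmean : HasSum (fun k : ℕ => (k : ℝ) * p k) d)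
    (hKS : 1 < d * lam ^ 2) : ∃ K : ℕ, 1 < dK p K * lam ^ 2 := by
  have h1 := (hmean.tendsto_sum_nat).mul_const (lam ^ 2)
  have h2 := (tendsto_order.1 h1).1 1 hKS
  obtain ⟨K, hK⟩ := h2.exists
  refine ⟨K, lt_of_lt_of_le hK (mul_le_mul_of_nonneg_right ?_ (sq_nonneg _))⟩
  have hs : Summable (fun k => p k * selS K k) := hp.summable_mul (bdd_selS K)
  have h3 := hs.sum_le_tsum (Finset.range K) (fun k _ => mul_nonneg (hp.nonneg k) (selS_nonneg K k))
  refine le_trans (le_of_eq ?_) h3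
  refine Finset.sum_congr rfl fun k hk => ?_
  rw [selS_of_le (Finset.mem_range.1 hk).le]
  ring

/-- Reconstruction above the Kesten-Stigum bound on Galton-Watson trees, with the sum over the trees
summable. -/
theorem gw_ks (hq : 2 ≤ q) (h0 : -(1 / ((q : ℝ) - 1)) ≤ lam) (h1 : lam ≤ 1) {p : ℕ → ℝ} {d : ℝ} (hp : WProb p)
    (hmean : HasSum (fun k : ℕ => (k : ℝ) * p k) d) (hKS : 1 < d * lam ^ 2) :
    (∀ n, Summable (fun T : GWTree n => gwWeight p n T * gwTreeAdvantage q lam n T))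
      ∧ ∃ c : ℝ, 0 < c ∧ ∀ n, c ≤ gwAdvantage p q lam n := by
  have hq0 : 0 < q := by omega
  have hP := potts_nonneg hq h0 h1
  have hqr : (0 : ℝ) < q := by exact_mod_cast hq0
  have hqr2 : (2 : ℝ) ≤ q := by exact_mod_cast hq
  have hadv : ∀ n (T : GWTree n), gwTreeAdvantage q lam n T = advOf q (gwLik q lam n T) := fun _ _ => rfl
  have hbddA : ∀ n, BddF (fun T : GWTree n => gwTreeAdvantage q lam n T) := fun n =>
    BddF.of_Icc (a := 0) (b := 1) fun T => by
      rw [hadv]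
      exact ⟨advOf_nonneg (gwlik_wprob hq0 hP n T), advOf_le_one hq0 (gwlik_wprob hq0 hP n T)⟩
  refine ⟨fun n => (gwWeight_wprob hp n).summable_mul (hbddA n), ?_⟩
  obtain ⟨K, hK⟩ := exists_trunc hp hmean hKS
  have hlam : lam ≠ 0 := by
    intro h
    rw [h] at hK
    norm_num at hK
  have hlam2 : 0 < lam ^ 2 := by positivity
  have hD : 0 < dK p K := by
    by_contra h
    have := mul_nonpos_of_nonpos_of_nonneg (not_lt.1 h) hlam2.le
    linarith
  let e0 : Fin q := ⟨0, hq0⟩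
  set C : ℝ := max 1 ((K : ℝ) ^ 2 * lam ^ 2 / (dK p K * (dK p K * lam ^ 2 - 1))) with hC
  have hC1 : 1 ≤ C := le_max_left _ _
  have hC2 := le_max_right 1 ((K : ℝ) ^ 2 * lam ^ 2 / (dK p K * (dK p K * lam ^ 2 - 1)))
  have hCpos : 0 < C := by linarith
  set κ : ℝ := 1 - 1 / (q : ℝ) with hκ
  have hκpos : 0 < κ := by
    have : 1 / (q : ℝ) ≤ 1 / 2 := by
      rw [div_le_div_iff₀ hqr (by norm_num)]
      linarith
    rw [hκ]
    linarith
  refine ⟨κ ^ 2 / (2 * (q : ℝ) ^ 2 * C), by positivity, fun n => ?_⟩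
  refine final_num hκpos hqr hCpos fun s hs => ?_
  have hM : (dK p K * lam) ^ n ≠ 0 := pow_ne_zero _ (mul_ne_zero hD.ne' hlam)
  set M := (dK p K * lam) ^ n with hMdef
  have hw := gwWeight_wprob hp n
  have hbm := bdd_mT (lam := lam) e0 K hq0 hP n
  have hbv := bdd_vT (lam := lam) e0 K hq0 hP n
  -- the comparison on each tree
  have hT : ∀ T : GWTree n,
      M⁻¹ * mT q lam e0 K n T e0 - (1 / (q : ℝ)) * ∑ i, M⁻¹ * mT q lam e0 K n T i
        ≤ 2 * q * s * gwTreeAdvantage q lam n T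
          + (1 / (4 * s)) * ∑ i, (M⁻¹) ^ 2 * vT q lam e0 K n T i := by
    intro T
    have hc := adv_cmp hq0 (gwlik_wprob hq0 hP n T) e0 (fun τ => M⁻¹ * XT q e0 K n T τ) s hs
    rw [← hadv] at hc
    have e1 : ∀ i, Ew (gwLik q lam n T i) (fun τ => M⁻¹ * XT q e0 K n T τ) = M⁻¹ * mT q lam e0 K n T i := fun i =>
      Ew_const_mul _ _
    have e2 : ∀ i, Ew (gwLik q lam n T i) (fun τ => (M⁻¹ * XT q e0 K n T τ) ^ 2) = (M⁻¹) ^ 2 * vT q lam e0 K n T i := fun i => by
      have e : (fun τ => (M⁻¹ * XT q e0 K n T τ) ^ 2) = fun τ => (M⁻¹) ^ 2 * XT q e0 K n T τ ^ 2 := by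
        funext τ
        ring
      rw [e, Ew_const_mul]
      rfl
    simp only [e1, e2] at hc
    exact hc
  have hbA := hbddA n
  have b1 : BddF (fun T : GWTree n => M⁻¹ * mT q lam e0 K n T e0 - (1 / (q : ℝ)) * ∑ i, M⁻¹ * mT q lam e0 K n T i) :=
    ((hbm e0).const_mul _).sub ((bdd_sum _ fun i => (hbm i).const_mul _).const_mul _)
  have b2 : BddF (fun T : GWTree n => 2 * q * s * gwTreeAdvantage q lam n T
      + (1 / (4 * s)) * ∑ i, (M⁻¹) ^ 2 * vT q lam e0 K n T i) :=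
    (hbA.const_mul _).add ((bdd_sum _ fun i => (hbv i).const_mul _).const_mul _)
  have hmono := Ew_mono hw b1 b2 hT
  rw [Ew_sub hw ((hbm e0).const_mul _) ((bdd_sum _ fun i => (hbm i).const_mul _).const_mul _),
    Ew_add hw (hbA.const_mul _) ((bdd_sum _ fun i => (hbv i).const_mul _).const_mul _),
    Ew_const_mul, Ew_const_mul, Ew_const_mul, Ew_const_mul,
    Ew_fin_sum hw Finset.univ (fun _ => M⁻¹) hbm, Ew_fin_sum hw Finset.univ (fun _ => (M⁻¹) ^ 2) hbv] at hmono
  have hA : ∀ i, Ew (gwWeight p n) (fun T => mT q lam e0 K n T i) = M * fS q e0 i := fun i =>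
    An_eq e0 K hp hq0 hP n i
  have hB : ∀ i, Ew (gwWeight p n) (fun T => vT q lam e0 K n T i) ≤ C * M ^ 2 := fun i =>
    Bn_le e0 K hp hq0 hP hD hK hC1 hC2 n i
  have hAd : Ew (gwWeight p n) (fun T => gwTreeAdvantage q lam n T) = gwAdvantage p q lam n := rfl
  rw [hAd] at hmono
  simp only [hA] at hmono
  have e3 : M⁻¹ * (M * fS q e0 e0) = κ := by
    rw [inv_mul_cancel_left₀ hM, fS_self]
  have e4 : ∑ i : Fin q, M⁻¹ * (M * fS q e0 i) = 0 := by
    simp only [inv_mul_cancel_left₀ hM, sum_fS hq0]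
  rw [e3, e4, mul_zero, sub_zero] at hmono
  have hsum : ∑ i, (M⁻¹) ^ 2 * Ew (gwWeight p n) (fun T => vT q lam e0 K n T i) ≤ q * C := by
    have h3 : 0 < (M⁻¹) ^ 2 := by positivity
    have h5 : ∀ i ∈ (Finset.univ : Finset (Fin q)),
        (M⁻¹) ^ 2 * Ew (gwWeight p n) (fun T => vT q lam e0 K n T i) ≤ C := fun i _ => by
      have h4 := mul_le_mul_of_nonneg_left (hB i) h3.le
      have e2 : (M⁻¹) ^ 2 * (C * M ^ 2) = C := by
        field_simp
      rwa [e2] at h4
    refine (Finset.sum_le_sum h5).trans_eq ?_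
    simp
  have h4 : 0 ≤ 1 / (4 * s) := by positivity
  have h5 := mul_le_mul_of_nonneg_left hsum h4
  linarith

/-- The sum over the trees which defines `a_n` converges for every admissible eigenvalue. -/
theorem gw_summable (hq : 2 ≤ q) (h0 : -(1 / ((q : ℝ) - 1)) ≤ lam) (h1 : lam ≤ 1) {p : ℕ → ℝ} (hp : WProb p) (n : ℕ) :
    Summable (fun T : GWTree n => gwWeight p n T * gwTreeAdvantage q lam n T) := by
  have hq0 : 0 < q := by omega
  have hP := potts_nonneg hq h0 h1
  refine (gwWeight_wprob hp n).summable_mul (BddF.of_Icc (a := 0) (b := 1) fun T => ?_)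
  exact ⟨advOf_nonneg (gwlik_wprob hq0 hP n T), advOf_le_one hq0 (gwlik_wprob hq0 hP n T)⟩

/-- Reconstruction above the Kesten-Stigum bound on Poisson trees. -/
theorem poisson_ks (hq : 2 ≤ q) (h0 : -(1 / ((q : ℝ) - 1)) ≤ lam) (h1 : lam ≤ 1) {d : ℝ} (hd : 0 < d)
    (hKS : 1 < d * lam ^ 2) :
    (∀ n, Summable (fun T : GWTree n => gwWeight (poissonLaw d) n T * gwTreeAdvantage q lam n T))
      ∧ ∃ c : ℝ, 0 < c ∧ ∀ n, c ≤ gwAdvantage (poissonLaw d) q lam n :=
  gw_ks hq h0 h1 (poisson_wprob hd.le) (poisson_mean hd.le) hKS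

end Vale.Agent.Lib.P154KS
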