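import Vale.Agent.Lib.P154.TreeGW

/-!
Independent products of probability weights on possibly different sets, the first two moments of a
sum of independent coordinates, and the comparison of the advantage with a linear statistic.
-/

noncomputable section

open Finset Filter Topology

namespace Vale.Agent.Lib.P154KS

open Vale.Agent.Lib.P154

/-! ### Bounded functions -/

theorem bdd_mul {X : Type} {f g : X → ℝ} (hf : BddF f) (hg : BddF g) : BddF (fun x => f x * g x) := by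
  obtain ⟨C, hC⟩ := hf
  obtain ⟨D, hD⟩ := hg
  refine ⟨C * D, fun x => ?_⟩
  rw [abs_mul]
  exact mul_le_mul (hC x) (hD x) (abs_nonneg _) ((abs_nonneg _).trans (hC x))

theorem bdd_sq {X : Type} {f : X → ℝ} (hf : BddF f) : BddF (fun x => f x ^ 2) := by
  have := bdd_mul hf hf
  refine (by simpa [sq] using this)

theorem bdd_const {X : Type} (c : ℝ) : BddF (fun _ : X => c) :=
  BddF.of_Icc (a := c) (b := c) fun _ => ⟨le_rfl, le_rfl⟩

theorem bdd_sum {X ι : Type} (s : Finset ι) {f : ι → X → ℝ} (hf : ∀ i, BddF (f i)) :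
    BddF (fun x => ∑ i ∈ s, f i x) := by
  choose C hC using hf
  refine ⟨∑ i ∈ s, C i, fun x => ?_⟩
  exact (Finset.abs_sum_le_sum_abs _ _).trans (Finset.sum_le_sum fun i _ => hC i x)

theorem bdd_fintype {X : Type} [Fintype X] (f : X → ℝ) : BddF f := by
  refine ⟨∑ x, |f x|, fun x => ?_⟩
  exact Finset.single_le_sum (f := fun x => |f x|) (fun _ _ => abs_nonneg _) (mem_univ x)

theorem Ew_fintype {X : Type} [Fintype X] (w f : X → ℝ) : Ew w f = ∑ x, w x * f x :=
  tsum_fintype _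

theorem Ew_fin_sum {X ι : Type} {w : X → ℝ} (hw : WProb w) (s : Finset ι) (c : ι → ℝ) {f : ι → X → ℝ}
    (hf : ∀ i, BddF (f i)) : Ew w (fun x => ∑ i ∈ s, c i * f i x) = ∑ i ∈ s, c i * Ew w (f i) := by
  unfold Ew
  have h : ∀ i ∈ s, Summable (fun x => c i * (w x * f i x)) := fun i _ =>
    (hw.summable_mul (hf i)).mul_left _
  simp_rw [← tsum_mul_left]
  rw [← Summable.tsum_finsetSum h]
  congr 1
  funext x
  rw [Finset.mul_sum]
  refine Finset.sum_congr rfl fun i _ => ?_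
  ring

theorem abs_Ew_le {X : Type} {w f : X → ℝ} (hw : WProb w) {C : ℝ} (h : ∀ x, |f x| ≤ C) : |Ew w f| ≤ C := by
  have hb : BddF f := ⟨C, h⟩
  rw [abs_le]
  constructor
  · have := Ew_mono hw (f := fun _ => -C) (g := f) (bdd_const _) hb (fun x => (abs_le.1 (h x)).1)
    rwa [Ew_const hw] at this
  · exact Ew_le_of_le hw hb fun x => (abs_le.1 (h x)).2

/-! ### Products -/

/-- The product of weights on possibly different sets. -/
def wPi {k : ℕ} {X : Fin k → Type} (w : ∀ c, X c → ℝ) : (∀ c, X c) → ℝ := fun ts => ∏ c, w c (ts c)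

theorem wPi_succ {k : ℕ} {X : Fin (k + 1) → Type} (w : ∀ c, X c → ℝ)
    (p : X 0 × ∀ c : Fin k, X c.succ) :
    wPi w (Fin.consEquiv X p) = w 0 p.1 * wPi (fun c : Fin k => w c.succ) p.2 := by
  unfold wPi
  rw [Fin.prod_univ_succ]
  rfl

theorem wprob_pi : ∀ (k : ℕ) (X : Fin k → Type) (w : ∀ c, X c → ℝ), (∀ c, WProb (w c)) → WProb (wPi w)
  | 0, X, w, _ => by
    refine ⟨fun ts => Finset.prod_nonneg fun c _ => (Fin.elim0 c), ?_⟩
    have := hasSum_unique (wPi w)
    simpa [wPi] using this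
  | k + 1, X, w, hw => by
    have ih := wprob_pi k (fun c : Fin k => X c.succ) (fun c => w c.succ) (fun c => hw c.succ)
    refine ⟨fun ts => Finset.prod_nonneg fun c _ => (hw c).nonneg _, ?_⟩
    have h := ((hw 0).prod ih).hasSum
    have e := Equiv.hasSum_iff (Fin.consEquiv X) (f := wPi w) (a := 1)
    apply e.1
    have h2 : (wPi w ∘ Fin.consEquiv X) = fun p => w 0 p.1 * wPi (fun c : Fin k => w c.succ) p.2 := by
      funext p
      exact wPi_succ w p
    rw [h2]
    exact h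

theorem Ew_pi_succ {k : ℕ} {X : Fin (k + 1) → Type} (w : ∀ c, X c → ℝ) (F : (∀ c, X c) → ℝ) :
    Ew (wPi w) F = Ew (fun p : X 0 × (∀ c : Fin k, X c.succ) => w 0 p.1 * wPi (fun c : Fin k => w c.succ) p.2)
      (fun p => F (Fin.consEquiv X p)) := by
  unfold Ew
  rw [← Equiv.tsum_eq (Fin.consEquiv X)]
  congr 1
  funext p
  rw [wPi_succ]

/-- The mean of a sum of coordinates. -/
theorem Ew_pi_sum : ∀ (k : ℕ) (X : Fin k → Type) (w : ∀ c, X c → ℝ) (_ : ∀ c, WProb (w c))
    (a : ∀ c, X c → ℝ) (_ : ∀ c, BddF (a c)),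
    Ew (wPi w) (fun ts => ∑ c, a c (ts c)) = ∑ c, Ew (w c) (a c)
  | 0, X, w, hw, a, _ => by
    have h := wprob_pi 0 X w hw
    simp only [Finset.univ_eq_empty, Finset.sum_empty]
    exact Ew_const h 0
  | k + 1, X, w, hw, a, ha => by
    have ih := Ew_pi_sum k (fun c : Fin k => X c.succ) (fun c => w c.succ) (fun c => hw c.succ)
      (fun c => a c.succ) (fun c => ha c.succ)
    have hr := wprob_pi k (fun c : Fin k => X c.succ) (fun c => w c.succ) (fun c => hw c.succ)
    rw [Ew_pi_succ, Fin.sum_univ_succ]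
    have hS : BddF (fun ts : ∀ c : Fin k, X c.succ => ∑ c, a c.succ (ts c)) := by
      choose C hC using ha
      refine ⟨∑ c : Fin k, C c.succ, fun ts => ?_⟩
      exact (Finset.abs_sum_le_sum_abs _ _).trans (Finset.sum_le_sum fun c _ => hC c.succ _)
    have hu := (hw 0).prod hr
    have bf : BddF (fun p : X 0 × (∀ c : Fin k, X c.succ) => a 0 p.1) := by
      obtain ⟨C, hC⟩ := ha 0
      exact ⟨C, fun p => hC _⟩
    have bg : BddF (fun p : X 0 × (∀ c : Fin k, X c.succ) => ∑ c, a c.succ (p.2 c)) := by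
      obtain ⟨C, hC⟩ := hS
      exact ⟨C, fun p => hC _⟩
    have e : (fun p : X 0 × (∀ c : Fin k, X c.succ) => ∑ c, a c (Fin.consEquiv X p c))
        = fun p => a 0 p.1 + ∑ c : Fin k, a c.succ (p.2 c) := by
      funext p
      rw [Fin.sum_univ_succ]
      rfl
    rw [e, Ew_add hu bf bg, Ew_prod_fst (hw 0) hr (ha 0), Ew_prod_snd (hw 0) hr hS, ih]

/-- The second moment of a sum of coordinates, in a form with a free second function. -/
theorem Ew_pi_U : ∀ (k : ℕ) (X : Fin k → Type) (w : ∀ c, X c → ℝ) (_ : ∀ c, WProb (w c))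
    (a b : ∀ c, X c → ℝ) (_ : ∀ c, BddF (a c)) (_ : ∀ c, BddF (b c)),
    Ew (wPi w) (fun ts => (∑ c, a c (ts c)) ^ 2 + ∑ c, (b c (ts c) - a c (ts c) ^ 2))
      = (∑ c, Ew (w c) (a c)) ^ 2 + ∑ c, (Ew (w c) (b c) - Ew (w c) (a c) ^ 2)
  | 0, X, w, hw, a, b, _, _ => by
    have h := wprob_pi 0 X w hw
    simp only [Finset.univ_eq_empty, Finset.sum_empty]
    have := Ew_const h ((0 : ℝ) ^ 2 + 0)
    exact this
  | k + 1, X, w, hw, a, b, ha, hb => by
    have ih := Ew_pi_U k (fun c : Fin k => X c.succ) (fun c => w c.succ) (fun c => hw c.succ)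
      (fun c => a c.succ) (fun c => b c.succ) (fun c => ha c.succ) (fun c => hb c.succ)
    have ihS := Ew_pi_sum k (fun c : Fin k => X c.succ) (fun c => w c.succ) (fun c => hw c.succ)
      (fun c => a c.succ) (fun c => ha c.succ)
    have hr := wprob_pi k (fun c : Fin k => X c.succ) (fun c => w c.succ) (fun c => hw c.succ)
    rw [Ew_pi_succ, Fin.sum_univ_succ, Fin.sum_univ_succ]
    have hS : BddF (fun ts : ∀ c : Fin k, X c.succ => ∑ c, a c.succ (ts c)) := by
      choose C hC using ha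
      refine ⟨∑ c : Fin k, C c.succ, fun ts => ?_⟩
      exact (Finset.abs_sum_le_sum_abs _ _).trans (Finset.sum_le_sum fun c _ => hC c.succ _)
    have hT : BddF (fun ts : ∀ c : Fin k, X c.succ => ∑ c, (b c.succ (ts c) - a c.succ (ts c) ^ 2)) := by
      have h1 : ∀ c : Fin k, BddF (fun t : X c.succ => b c.succ t - a c.succ t ^ 2) := fun c =>
        (hb c.succ).sub (bdd_sq (ha c.succ))
      choose C hC using h1
      refine ⟨∑ c : Fin k, C c, fun ts => ?_⟩
      exact (Finset.abs_sum_le_sum_abs _ _).trans (Finset.sum_le_sum fun c _ => hC c _)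
    have hU : BddF (fun ts : ∀ c : Fin k, X c.succ =>
        (∑ c, a c.succ (ts c)) ^ 2 + ∑ c, (b c.succ (ts c) - a c.succ (ts c) ^ 2)) :=
      (bdd_sq hS).add hT
    have hu := (hw 0).prod hr
    have b0 : BddF (fun p : X 0 × (∀ c : Fin k, X c.succ) => b 0 p.1) := by
      obtain ⟨C, hC⟩ := hb 0
      exact ⟨C, fun p => hC _⟩
    have bmul : BddF (fun p : X 0 × (∀ c : Fin k, X c.succ) => a 0 p.1 * ∑ c, a c.succ (p.2 c)) := by
      obtain ⟨C, hC⟩ := ha 0
      obtain ⟨D, hD⟩ := hS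
      refine ⟨C * D, fun p => ?_⟩
      rw [abs_mul]
      exact mul_le_mul (hC _) (hD _) (abs_nonneg _) ((abs_nonneg _).trans (hC p.1))
    have bU : BddF (fun p : X 0 × (∀ c : Fin k, X c.succ) =>
        (∑ c, a c.succ (p.2 c)) ^ 2 + ∑ c, (b c.succ (p.2 c) - a c.succ (p.2 c) ^ 2)) := by
      obtain ⟨C, hC⟩ := hU
      exact ⟨C, fun p => hC _⟩
    have e : (fun p : X 0 × (∀ c : Fin k, X c.succ) =>
          (∑ c, a c (Fin.consEquiv X p c)) ^ 2 + ∑ c, (b c (Fin.consEquiv X p c) - a c (Fin.consEquiv X p c) ^ 2))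
        = fun p => (b 0 p.1 + 2 * (a 0 p.1 * ∑ c, a c.succ (p.2 c)))
            + ((∑ c, a c.succ (p.2 c)) ^ 2 + ∑ c, (b c.succ (p.2 c) - a c.succ (p.2 c) ^ 2)) := by
      funext p
      rw [Fin.sum_univ_succ, Fin.sum_univ_succ]
      have e0 : Fin.consEquiv X p 0 = p.1 := rfl
      have e1 : ∀ c : Fin k, Fin.consEquiv X p c.succ = p.2 c := fun _ => rfl
      simp only [e0, e1]
      ring
    rw [e, Ew_add hu (b0.add (bmul.const_mul 2)) bU, Ew_add hu b0 (bmul.const_mul 2), Ew_const_mul,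
      Ew_prod_fst (hw 0) hr (hb 0), Ew_prod_mul (hw 0) hr (ha 0) hS,
      Ew_prod_snd (hw 0) hr hU, ih, ihS]
    ring

/-! ### The channel on the level of weights -/

variable {q : ℕ} {lam : ℝ}

theorem sum_potts (hq : 0 < q) (lam : ℝ) (i : Fin q) : ∑ j, potts q lam i j = 1 := by
  have hq' : (q : ℝ) ≠ 0 := by positivity
  unfold potts
  simp [Finset.sum_add_distrib]
  field_simp
  ring

/-- The action of the channel on functions of the spin. -/
def Pc (q : ℕ) (lam : ℝ) (a : Fin q → ℝ) (i : Fin q) : ℝ := ∑ j, potts q lam i j * a j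

/-- The law at the parent of a family of laws at the child. -/
def chanW {S : Type} (q : ℕ) (lam : ℝ) (L : Fin q → S → ℝ) (i : Fin q) : S → ℝ :=
  fun σ => ∑ j, potts q lam i j * L j σ

theorem chanW_wprob {S : Type} (hq : 0 < q) (hP : ∀ i j, 0 ≤ potts q lam i j) {L : Fin q → S → ℝ}
    (hL : ∀ j, WProb (L j)) (i : Fin q) : WProb (chanW q lam L i) := by
  refine ⟨fun σ => Finset.sum_nonneg fun j _ => mul_nonneg (hP i j) ((hL j).nonneg σ), ?_⟩
  have h : HasSum (chanW q lam L i) (∑ j, potts q lam i j * 1) :=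
    hasSum_sum fun j _ => (hL j).hasSum.mul_left _
  simp only [mul_one, sum_potts hq] at h
  exact h

theorem Ew_chanW {S : Type} {L : Fin q → S → ℝ} (hL : ∀ j, WProb (L j)) {g : S → ℝ} (hg : BddF g) (i : Fin q) :
    Ew (chanW q lam L i) g = Pc q lam (fun j => Ew (L j) g) i := by
  unfold Ew Pc chanW
  have h : ∀ j ∈ (Finset.univ : Finset (Fin q)), Summable (fun σ => potts q lam i j * (L j σ * g σ)) :=
    fun j _ => ((hL j).summable_mul hg).mul_left _
  simp_rw [← tsum_mul_left]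
  rw [← Summable.tsum_finsetSum h]
  congr 1
  funext σ
  rw [Finset.sum_mul]
  refine Finset.sum_congr rfl fun j _ => ?_
  ring

theorem Pc_const (hq : 0 < q) (c : ℝ) (i : Fin q) : Pc q lam (fun _ => c) i = c := by
  unfold Pc
  rw [← Finset.sum_mul, sum_potts hq, one_mul]

theorem Pc_le (hq : 0 < q) (hP : ∀ i j, 0 ≤ potts q lam i j) {a : Fin q → ℝ} {C : ℝ} (h : ∀ j, a j ≤ C) (i : Fin q) :
    Pc q lam a i ≤ C := by
  unfold Pc
  calc ∑ j, potts q lam i j * a j ≤ ∑ j, potts q lam i j * C :=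
        Finset.sum_le_sum fun j _ => mul_le_mul_of_nonneg_left (h j) (hP i j)
    _ = C := by rw [← Finset.sum_mul, sum_potts hq, one_mul]

/-- The eigenfunction of the channel: the spin is `e0`, minus its mean. -/
def fS (q : ℕ) (e0 : Fin q) (j : Fin q) : ℝ := (if j = e0 then 1 else 0) - 1 / (q : ℝ)

theorem sum_fS (hq : 0 < q) (e0 : Fin q) : ∑ j, fS q e0 j = 0 := by
  have hq' : (q : ℝ) ≠ 0 := by positivity
  unfold fS
  simp [Finset.sum_sub_distrib]
  field_simp
  simp

theorem Pc_fS (hq : 0 < q) (e0 i : Fin q) (β : ℝ) :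
    Pc q lam (fun j => β * fS q e0 j) i = β * (lam * fS q e0 i) := by
  have h := sum_fS hq e0
  unfold Pc potts
  have e : ∀ j, (lam * (if i = j then 1 else 0) + (1 - lam) / (q : ℝ)) * (β * fS q e0 j)
      = β * lam * ((if i = j then 1 else 0) * fS q e0 j) + β * ((1 - lam) / (q : ℝ)) * fS q e0 j := fun j => by
    ring
  simp only [e, Finset.sum_add_distrib, ← Finset.mul_sum, h]
  simp
  ring

theorem fS_abs (hq : 0 < q) (e0 j : Fin q) : |fS q e0 j| ≤ 1 := by
  have h1 : (0 : ℝ) < 1 / (q : ℝ) := by positivity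
  have h2 : 1 / (q : ℝ) ≤ 1 := by
    rw [div_le_one (by positivity)]
    exact_mod_cast hq
  unfold fS
  rw [abs_le]
  split_ifs <;> constructor <;> linarith

theorem fS_self (e0 : Fin q) : fS q e0 e0 = 1 - 1 / (q : ℝ) := by
  simp [fS]

/-! ### The advantage of a family of laws and a linear statistic -/

/-- The quantity `a_n` of a family of laws on a finite set. -/
def advOf {S : Type} [Fintype S] (q : ℕ) (L : Fin q → S → ℝ) : ℝ :=
  ∑ τ, (∑ i, (1 / (q : ℝ)) * L i τ) *
    ((1 / 2) * ∑ i, |(1 / (q : ℝ)) * L i τ / (∑ i, (1 / (q : ℝ)) * L i τ) - 1 / (q : ℝ)|)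

/-- The pointwise comparison. -/
theorem point_cmp (hq : 0 < q) (L : Fin q → ℝ) (hL : ∀ i, 0 ≤ L i) (e0 : Fin q) (g s : ℝ) (hs : 0 < s) :
    (L e0 - ∑ i, (1 / (q : ℝ)) * L i) * g
      ≤ 2 * q * s * ((∑ i, (1 / (q : ℝ)) * L i) *
          ((1 / 2) * ∑ i, |(1 / (q : ℝ)) * L i / (∑ i, (1 / (q : ℝ)) * L i) - 1 / (q : ℝ)|))
        + (1 / (4 * s)) * ((∑ i, L i) * g ^ 2) := by
  have hq' : (0 : ℝ) < q := by positivity
  set P := ∑ i, (1 / (q : ℝ)) * L i with hP
  have hP0 : 0 ≤ P := Finset.sum_nonneg fun i _ => mul_nonneg (by positivity) (hL i)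
  have hPS : (q : ℝ) * P = ∑ i, L i := by
    rw [hP, Finset.mul_sum]
    refine Finset.sum_congr rfl fun i _ => ?_
    field_simp
  have hLe : L e0 ≤ (q : ℝ) * P := by
    rw [hPS]
    exact Finset.single_le_sum (f := L) (fun i _ => hL i) (mem_univ e0)
  have hq1 : (1 : ℝ) ≤ q := by exact_mod_cast hq
  set x := L e0 - P with hx
  have hxa : |x| ≤ (q : ℝ) * P := by
    rw [abs_le]
    have h0 := hL e0
    constructor <;> nlinarith
  -- the absolute value
  have hA : |x| ≤ 2 * q * (P * ((1 / 2) * ∑ i, |(1 / (q : ℝ)) * L i / P - 1 / (q : ℝ)|)) := by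
    rcases hP0.eq_or_lt with h0 | hpos
    · have : x = 0 := by
        have h1 : |x| ≤ 0 := by
          rw [← h0] at hxa
          simpa using hxa
        exact abs_nonpos_iff.1 h1
      rw [this, abs_zero, ← h0]
      simp
    · have hterm : |(1 / (q : ℝ)) * L e0 / P - 1 / (q : ℝ)| * P = |x| / q := by
        have e1 : (1 / (q : ℝ)) * L e0 / P - 1 / (q : ℝ) = x / (q * P) := by
          rw [hx]
          field_simp
        rw [e1, abs_div, abs_of_pos (mul_pos hq' hpos)]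
        field_simp
      have hsing : |(1 / (q : ℝ)) * L e0 / P - 1 / (q : ℝ)| ≤ ∑ i, |(1 / (q : ℝ)) * L i / P - 1 / (q : ℝ)| :=
        Finset.single_le_sum (f := fun i => |(1 / (q : ℝ)) * L i / P - 1 / (q : ℝ)|)
          (fun _ _ => abs_nonneg _) (mem_univ e0)
      have h3 : |x| = q * (|(1 / (q : ℝ)) * L e0 / P - 1 / (q : ℝ)| * P) := by
        rw [hterm]
        field_simp
      rw [h3]
      have : |(1 / (q : ℝ)) * L e0 / P - 1 / (q : ℝ)| * P ≤ (∑ i, |(1 / (q : ℝ)) * L i / P - 1 / (q : ℝ)|) * P :=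
        mul_le_mul_of_nonneg_right hsing hP0
      nlinarith
  -- the statistic
  have hg : |g| ≤ s + g ^ 2 / (4 * s) := by
    have e : s + g ^ 2 / (4 * s) - |g| = (|g| - 2 * s) ^ 2 / (4 * s) := by
      rw [← sq_abs g]
      field_simp
      ring
    have h1 := div_nonneg (sq_nonneg (|g| - 2 * s)) (by positivity : 0 ≤ 4 * s)
    linarith
  have hS0 : 0 ≤ ∑ i, L i := Finset.sum_nonneg fun i _ => hL i
  calc x * g ≤ |x| * |g| := by
        rw [← abs_mul]
        exact le_abs_self _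
    _ ≤ |x| * (s + g ^ 2 / (4 * s)) := mul_le_mul_of_nonneg_left hg (abs_nonneg _)
    _ = |x| * s + |x| * (g ^ 2 / (4 * s)) := by ring
    _ ≤ (2 * q * (P * ((1 / 2) * ∑ i, |(1 / (q : ℝ)) * L i / P - 1 / (q : ℝ)|))) * s
        + ((q : ℝ) * P) * (g ^ 2 / (4 * s)) := by
        refine add_le_add (mul_le_mul_of_nonneg_right hA hs.le)
          (mul_le_mul_of_nonneg_right hxa (by positivity))
    _ = _ := by
        rw [hPS]
        ring

/-- The comparison for a family of laws on a finite set. -/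
theorem adv_cmp {S : Type} [Fintype S] (hq : 0 < q) {L : Fin q → S → ℝ} (hL : ∀ i, WProb (L i)) (e0 : Fin q)
    (g : S → ℝ) (s : ℝ) (hs : 0 < s) :
    Ew (L e0) g - (1 / (q : ℝ)) * ∑ i, Ew (L i) g
      ≤ 2 * q * s * advOf q L + (1 / (4 * s)) * ∑ i, Ew (L i) (fun τ => g τ ^ 2) := by
  have h := Finset.sum_le_sum (s := Finset.univ) fun τ (_ : τ ∈ Finset.univ) =>
    point_cmp hq (fun i => L i τ) (fun i => (hL i).nonneg τ) e0 (g τ) s hs
  simp only [Ew_fintype]
  unfold advOf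
  have e1 : ∑ τ, (L e0 τ - ∑ i, (1 / (q : ℝ)) * L i τ) * g τ
      = ∑ τ, L e0 τ * g τ - (1 / (q : ℝ)) * ∑ i, ∑ τ, L i τ * g τ := by
    simp only [sub_mul, Finset.sum_sub_distrib, Finset.sum_mul, Finset.mul_sum]
    congr 1
    rw [Finset.sum_comm]
    refine Finset.sum_congr rfl fun i _ => Finset.sum_congr rfl fun τ _ => ?_
    ring
  have e2 : ∑ τ, (1 / (4 * s)) * ((∑ i, L i τ) * g τ ^ 2) = ∑ i, (1 / (4 * s)) * ∑ τ, L i τ * g τ ^ 2 := by
    simp only [Finset.sum_mul, Finset.mul_sum]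
    rw [Finset.sum_comm]
  rw [e1, Finset.sum_add_distrib, e2] at h
  rw [Finset.mul_sum (a := 2 * (q : ℝ) * s), Finset.mul_sum (a := 1 / (4 * s))]
  exact h

end Vale.Agent.Lib.P154KS
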