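import Vale.Agent.Lib.P154KS.Gen

/-!
Reconstruction above the Kesten-Stigum bound on the rooted `d`-ary tree, by the second moment of the
linear statistic.
-/

noncomputable section

open Finset Filter Topology

namespace Vale.Agent.Lib.P154KS

open Vale.Agent.Lib.P154

variable {q : ℕ} {lam : ℝ}

theorem potts_nonneg (hq : 2 ≤ q) (h0 : -(1 / ((q : ℝ) - 1)) ≤ lam) (h1 : lam ≤ 1) (i j : Fin q) :
    0 ≤ potts q lam i j := by
  have hq1 : (0 : ℝ) < (q : ℝ) - 1 := by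
    have : (2 : ℝ) ≤ q := by exact_mod_cast hq
    linarith
  have hq0 : (0 : ℝ) < q := by linarith
  unfold potts
  have h2 : -1 ≤ ((q : ℝ) - 1) * lam := by
    have := mul_le_mul_of_nonneg_left h0 hq1.le
    rw [mul_neg, mul_one_div_cancel hq1.ne'] at this
    exact this
  split_ifs
  · have e : lam * 1 + (1 - lam) / (q : ℝ) = (1 + ((q : ℝ) - 1) * lam) / q := by
      field_simp
      ring
    rw [e]
    exact div_nonneg (by linarith) hq0.le
  · have : 0 ≤ (1 - lam) / (q : ℝ) := div_nonneg (by linarith) hq0.le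
    linarith

/-- The numerical end of the second moment argument. -/
theorem final_num {κ q' C a : ℝ} (hκ : 0 < κ) (hq : 0 < q') (hC : 0 < C)
    (h : ∀ s : ℝ, 0 < s → κ ≤ 2 * q' * s * a + (1 / (4 * s)) * (q' * C)) :
    κ ^ 2 / (2 * q' ^ 2 * C) ≤ a := by
  have h2 := h (q' * C / (2 * κ)) (by positivity)
  have e1 : (1 / (4 * (q' * C / (2 * κ)))) * (q' * C) = κ / 2 := by
    field_simp
    ring
  rw [e1] at h2
  have h3 : κ / 2 ≤ 2 * q' * (q' * C / (2 * κ)) * a := by linarith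
  have e2 : 2 * q' * (q' * C / (2 * κ)) * a = (q' ^ 2 * C / κ) * a := by
    field_simp
  rw [e2] at h3
  rw [div_le_iff₀ (by positivity)]
  have h4 : κ * (κ / 2) ≤ κ * ((q' ^ 2 * C / κ) * a) := mul_le_mul_of_nonneg_left h3 hκ.le
  have e3 : κ * ((q' ^ 2 * C / κ) * a) = q' ^ 2 * C * a := by
    field_simp
  rw [e3] at h4
  nlinarith

/-- The step of the bound of the second moment, in numbers. -/
theorem const_step {D K2 L2 C m2 A : ℝ} (hD : 0 < D) (hL : 1 < D * L2) (hC : K2 * L2 / (D * (D * L2 - 1)) ≤ C)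
    (hm : 0 ≤ m2) (hA : A ≤ K2 * L2 * m2 + D * (C * m2)) : A ≤ C * (D ^ 2 * L2 * m2) := by
  have hpos : 0 < D * (D * L2 - 1) := mul_pos hD (by linarith)
  have h1 : K2 * L2 ≤ C * (D * (D * L2 - 1)) := by
    rwa [div_le_iff₀ hpos] at hC
  have h2 := mul_le_mul_of_nonneg_right h1 hm
  nlinarith

/-- The linear statistic on the `d`-ary tree. -/
def XR (d q : ℕ) (e0 : Fin q) : (n : ℕ) → LeafSpins d q n → ℝ
  | 0, τ => fS q e0 (spinAtZero τ)
  | n + 1, τ => ∑ c, XR d q e0 n (τ c)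

section reg

variable {d : ℕ}

theorem lik_wprob (hq : 0 < q) (hP : ∀ i j, 0 ≤ potts q lam i j) :
    ∀ (n : ℕ) (i : Fin q), WProb (leafLik d q lam n i)
  | 0, i => by
    refine ⟨fun τ => ?_, ?_⟩
    · change 0 ≤ (if i = spinAtZero τ then (1 : ℝ) else 0)
      split_ifs <;> norm_num
    · have h : HasSum (fun τ : Fin q => if i = τ then (1 : ℝ) else 0) (∑ τ : Fin q, if i = τ then (1 : ℝ) else 0) :=
        hasSum_fintype _
      simp only [Finset.sum_ite_eq, mem_univ, if_true] at h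
      exact h
  | n + 1, i => by
    have h := wprob_pi d (fun _ => LeafSpins d q n) (fun _ => chanW q lam (leafLik d q lam n) i)
      (fun _ => chanW_wprob hq hP (lik_wprob hq hP n) i)
    exact h

/-- The mean of the statistic. -/
def mR (d q : ℕ) (lam : ℝ) (e0 : Fin q) (n : ℕ) (i : Fin q) : ℝ := Ew (leafLik d q lam n i) (XR d q e0 n)

/-- The second moment of the statistic. -/
def vR (d q : ℕ) (lam : ℝ) (e0 : Fin q) (n : ℕ) (i : Fin q) : ℝ :=
  Ew (leafLik d q lam n i) (fun τ => XR d q e0 n τ ^ 2)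

theorem bdd_XR (e0 : Fin q) (n : ℕ) : BddF (XR d q e0 n) := bdd_fintype _

theorem mR_succ (hq : 0 < q) (hP : ∀ i j, 0 ≤ potts q lam i j) (e0 : Fin q) (n : ℕ) (i : Fin q) :
    mR d q lam e0 (n + 1) i = d * Pc q lam (mR d q lam e0 n) i := by
  have hw := lik_wprob (d := d) hq hP n
  have h := Ew_pi_sum d (fun _ => LeafSpins d q n) (fun _ => chanW q lam (leafLik d q lam n) i)
    (fun _ => chanW_wprob hq hP hw i) (fun _ => XR d q e0 n) (fun _ => bdd_XR e0 n)
  refine Eq.trans h ?_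
  simp only [Finset.sum_const, Finset.card_univ, Fintype.card_fin, nsmul_eq_mul]
  rw [Ew_chanW hw (bdd_XR e0 n)]
  rfl

theorem vR_succ (hq : 0 < q) (hP : ∀ i j, 0 ≤ potts q lam i j) (e0 : Fin q) (n : ℕ) (i : Fin q) :
    vR d q lam e0 (n + 1) i
      = (d * Pc q lam (mR d q lam e0 n) i) ^ 2
        + d * (Pc q lam (vR d q lam e0 n) i - Pc q lam (mR d q lam e0 n) i ^ 2) := by
  have hw := lik_wprob (d := d) hq hP n
  have h := Ew_pi_U d (fun _ => LeafSpins d q n) (fun _ => chanW q lam (leafLik d q lam n) i)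
    (fun _ => chanW_wprob hq hP hw i) (fun _ => XR d q e0 n) (fun _ σ => XR d q e0 n σ ^ 2)
    (fun _ => bdd_XR e0 n) (fun _ => bdd_sq (bdd_XR e0 n))
  simp only [sub_self, Finset.sum_const_zero, add_zero] at h
  refine Eq.trans h ?_
  simp only [Finset.sum_const, Finset.card_univ, Fintype.card_fin, nsmul_eq_mul]
  rw [Ew_chanW hw (bdd_XR e0 n), Ew_chanW hw (bdd_sq (bdd_XR e0 n))]
  rfl

theorem mR_zero (e0 i : Fin q) : mR d q lam e0 0 i = fS q e0 i := by
  unfold mR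
  have e : ∀ τ : Fin q, (if i = τ then (1 : ℝ) else 0) * fS q e0 τ = if i = τ then fS q e0 τ else 0 := fun τ => by
    split_ifs <;> simp
  change ∑' τ : Fin q, (if i = τ then (1 : ℝ) else 0) * fS q e0 τ = _
  rw [tsum_fintype]
  simp only [e]
  simp

theorem vR_zero (hq : 0 < q) (e0 i : Fin q) : vR d q lam e0 0 i ≤ 1 := by
  unfold vR
  have e : ∀ τ : Fin q, (if i = τ then (1 : ℝ) else 0) * fS q e0 τ ^ 2 = if i = τ then fS q e0 τ ^ 2 else 0 := fun τ => by
    split_ifs <;> simp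
  change ∑' τ : Fin q, (if i = τ then (1 : ℝ) else 0) * fS q e0 τ ^ 2 ≤ _
  rw [tsum_fintype]
  simp only [e]
  simp only [Finset.sum_ite_eq, mem_univ, if_true]
  have := fS_abs hq e0 i
  rw [← sq_abs]
  have h0 := abs_nonneg (fS q e0 i)
  nlinarith

theorem mR_eq (hq : 0 < q) (hP : ∀ i j, 0 ≤ potts q lam i j) (e0 : Fin q) (n : ℕ) (i : Fin q) :
    mR d q lam e0 n i = ((d : ℝ) * lam) ^ n * fS q e0 i := by
  induction n generalizing i with
  | zero => rw [mR_zero]; simp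
  | succ n ih =>
    rw [mR_succ hq hP]
    have : mR d q lam e0 n = fun j => ((d : ℝ) * lam) ^ n * fS q e0 j := by
      funext j
      exact ih j
    rw [this, Pc_fS hq]
    ring

theorem vR_le (hq : 0 < q) (hP : ∀ i j, 0 ≤ potts q lam i j) (e0 : Fin q) (hd : 0 < d)
    (hKS : 1 < (d : ℝ) * lam ^ 2) {C : ℝ} (hC1 : 1 ≤ C)
    (hC : ((d : ℝ) ^ 2) * lam ^ 2 / ((d : ℝ) * ((d : ℝ) * lam ^ 2 - 1)) ≤ C) (n : ℕ) (i : Fin q) :
    vR d q lam e0 n i ≤ C * (((d : ℝ) * lam) ^ n) ^ 2 := by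
  induction n generalizing i with
  | zero =>
    have := vR_zero (d := d) (lam := lam) hq e0 i
    simp
    linarith
  | succ n ih =>
    rw [vR_succ hq hP]
    have hm : mR d q lam e0 n = fun j => ((d : ℝ) * lam) ^ n * fS q e0 j := by
      funext j
      exact mR_eq hq hP e0 n j
    rw [hm, Pc_fS hq]
    have hPv := Pc_le hq hP (a := vR d q lam e0 n) (C := C * (((d : ℝ) * lam) ^ n) ^ 2) ih i
    set M := ((d : ℝ) * lam) ^ n with hM
    have hD : (0 : ℝ) < d := by exact_mod_cast hd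
    have hd1 : (1 : ℝ) ≤ d := by exact_mod_cast hd
    have hf : fS q e0 i ^ 2 ≤ 1 := by
      have := fS_abs hq e0 i
      rw [← sq_abs]
      have h0 := abs_nonneg (fS q e0 i)
      nlinarith
    have hstep := const_step (D := (d : ℝ)) (K2 := (d : ℝ) ^ 2) (L2 := lam ^ 2) (C := C) (m2 := M ^ 2)
      (A := ((d : ℝ) * (M * (lam * fS q e0 i))) ^ 2 + d * (Pc q lam (vR d q lam e0 n) i - (M * (lam * fS q e0 i)) ^ 2))
      hD hKS hC (sq_nonneg _) (by
        have h1 : ((d : ℝ) * (M * (lam * fS q e0 i))) ^ 2 + d * (Pc q lam (vR d q lam e0 n) i - (M * (lam * fS q e0 i)) ^ 2)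
            = ((d : ℝ) ^ 2 - d) * (lam ^ 2 * M ^ 2) * fS q e0 i ^ 2 + d * Pc q lam (vR d q lam e0 n) i := by
          ring
        rw [h1]
        have h2 : 0 ≤ ((d : ℝ) ^ 2 - d) * (lam ^ 2 * M ^ 2) := by
          refine mul_nonneg ?_ (by positivity)
          nlinarith
        have h3 := mul_le_mul_of_nonneg_left hf h2
        have h4 := mul_le_mul_of_nonneg_left hPv hD.le
        have h5 : 0 ≤ (d : ℝ) * (lam ^ 2 * M ^ 2) := by positivity
        nlinarith)
    refine hstep.trans_eq ?_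
    rw [pow_succ ((d : ℝ) * lam) n, ← hM]
    ring

/-- Reconstruction above the Kesten-Stigum bound on the `d`-ary tree. -/
theorem reg_ks (hq : 2 ≤ q) (h0 : -(1 / ((q : ℝ) - 1)) ≤ lam) (h1 : lam ≤ 1) (hKS : 1 < (d : ℝ) * lam ^ 2) :
    ∃ c : ℝ, 0 < c ∧ ∀ n, c ≤ advantage d q lam n := by
  have hq0 : 0 < q := by omega
  have hP := potts_nonneg hq h0 h1
  have hqr : (0 : ℝ) < q := by exact_mod_cast hq0
  have hqr2 : (2 : ℝ) ≤ q := by exact_mod_cast hq
  have hd : 0 < d := by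
    rcases Nat.eq_zero_or_pos d with h | h
    · subst h
      norm_num at hKS
    · exact h
  have hD : (0 : ℝ) < d := by exact_mod_cast hd
  have hlam : lam ≠ 0 := by
    intro h
    rw [h] at hKS
    norm_num at hKS
  let e0 : Fin q := ⟨0, hq0⟩
  set C : ℝ := max 1 (((d : ℝ) ^ 2) * lam ^ 2 / ((d : ℝ) * ((d : ℝ) * lam ^ 2 - 1))) with hC
  have hC1 : 1 ≤ C := le_max_left _ _
  have hC2 := le_max_right 1 (((d : ℝ) ^ 2) * lam ^ 2 / ((d : ℝ) * ((d : ℝ) * lam ^ 2 - 1)))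
  have hCpos : 0 < C := by linarith
  set κ : ℝ := 1 - 1 / (q : ℝ) with hκ
  have hκpos : 0 < κ := by
    have : 1 / (q : ℝ) ≤ 1 / 2 := by
      rw [div_le_div_iff₀ hqr (by norm_num)]
      linarith
    rw [hκ]
    linarith
  refine ⟨κ ^ 2 / (2 * (q : ℝ) ^ 2 * C), by positivity, fun n => ?_⟩
  refine final_num hκpos hqr hCpos fun s hs => ?_
  have hM : ((d : ℝ) * lam) ^ n ≠ 0 := pow_ne_zero _ (mul_ne_zero hD.ne' hlam)
  set M := ((d : ℝ) * lam) ^ n with hMdef
  have hw := lik_wprob (d := d) hq0 hP n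
  have hc := adv_cmp hq0 hw e0 (fun τ => M⁻¹ * XR d q e0 n τ) s hs
  have hadv : advOf q (leafLik d q lam n) = advantage d q lam n := rfl
  rw [hadv] at hc
  have hm : ∀ i, Ew (leafLik d q lam n i) (fun τ => M⁻¹ * XR d q e0 n τ) = fS q e0 i := fun i => by
    rw [Ew_const_mul]
    change M⁻¹ * mR d q lam e0 n i = _
    rw [mR_eq hq0 hP e0 n i, ← hMdef]
    field_simp
  have hv : ∀ i, Ew (leafLik d q lam n i) (fun τ => (M⁻¹ * XR d q e0 n τ) ^ 2) ≤ C := fun i => by
    have e : (fun τ => (M⁻¹ * XR d q e0 n τ) ^ 2) = fun τ => (M⁻¹) ^ 2 * XR d q e0 n τ ^ 2 := by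
      funext τ
      ring
    rw [e, Ew_const_mul]
    change (M⁻¹) ^ 2 * vR d q lam e0 n i ≤ _
    have h2 := vR_le hq0 hP e0 hd hKS hC1 hC2 n i
    rw [← hMdef] at h2
    have h3 : 0 < (M⁻¹) ^ 2 := by positivity
    have h4 := mul_le_mul_of_nonneg_left h2 h3.le
    have e2 : (M⁻¹) ^ 2 * (C * M ^ 2) = C := by
      field_simp
    rw [e2] at h4
    exact h4
  simp only [hm, sum_fS hq0, mul_zero, sub_zero, fS_self] at hc
  have hsum : ∑ i, Ew (leafLik d q lam n i) (fun τ => (M⁻¹ * XR d q e0 n τ) ^ 2) ≤ q * C := by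
    refine (Finset.sum_le_sum fun i _ => hv i).trans_eq ?_
    simp
  have h4 : 0 ≤ 1 / (4 * s) := by positivity
  have h5 := mul_le_mul_of_nonneg_left hsum h4
  linarith

end reg

end Vale.Agent.Lib.P154KS
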